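import Mathlib

/-!
P207, line N4, row S-INV (step 3 of note 16121), abstract part: a field of subspaces which is
almost invariant at small scale with error `d ^ (1 - e)` is exactly invariant, because the pull
back loses at most `exp (2 b T)` while the forms are contracted by `exp (- 2 a T)`.
-/

namespace Vale.Agent.P207.H493

open Filter Topology

/-- Abstract form of step 3. -/
theorem sinv {W : Type*} [NormedAddCommGroup W] [NormedSpace ℝ W] [FiniteDimensional ℝ W]
    (S S' : ℕ → Submodule ℝ W) (L L' J H : ℕ → W →L[ℝ] W)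
    {a b C e : ℝ} (hC : 0 < C) (he : 0 < e) (he1 : e < 1)
    (hab : 2 * b + e * a < 3 * a)
    (hJL : ∀ T x, J T (L' T x) = x)
    (hJ : ∀ T x, ‖J T x‖ ≤ C * Real.exp (2 * b * T) * ‖x‖)
    (hL : ∀ T s, ‖L T s‖ ≤ C * Real.exp (-(2 * a * T)) * ‖s‖)
    (hLS : ∀ T, ∀ s ∈ S 0, L T s ∈ S T)
    (hJS : ∀ T, ∀ s ∈ S' T, J T s ∈ S' 0)
    (hH : ∀ T s, H T (L T s) = L' T (H 0 s))
    (d : ℕ → ℝ) (hd0 : ∀ T, 0 ≤ d T) (hd1 : ∀ T, d T ≤ 1)
    (hd : ∀ T, d T ≤ C * Real.exp (-(a * T)))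
    (hHd : ∀ T s, ‖H T s - s‖ ≤ C * d T * ‖s‖)
    (hQ : ∀ T, ∀ s ∈ S T, ∃ s' ∈ S' T, ‖s - s'‖ ≤ C * (d T) ^ (1 - e) * ‖s‖) :
    ∀ s ∈ S 0, H 0 s ∈ S' 0 := by
  intro s hs
  choose! q hq1 hq2 using hQ
  have hmem : ∀ T, J T (q T (L T s)) ∈ S' 0 := fun T =>
    hJS T _ (hq1 T _ (hLS T s hs))
  set K : ℝ := 2 * C ^ 3 * C ^ (1 - e) * ‖s‖ with hK
  set r : ℝ := 3 * a - e * a - 2 * b with hr
  have hrpos : 0 < r := by rw [hr]; linarith
  have hbound : ∀ T : ℕ, ‖H 0 s - J T (q T (L T s))‖ ≤ K * Real.exp (-(r * T)) := by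
    intro T
    have h1 : H 0 s - J T (q T (L T s)) = J T (H T (L T s) - q T (L T s)) := by
      rw [map_sub, hH, hJL]
    have hdT := hd0 T
    have hd1T := hd1 T
    have h2 : ‖H T (L T s) - q T (L T s)‖ ≤ 2 * C * (d T) ^ (1 - e) * ‖L T s‖ := by
      have e1 : H T (L T s) - q T (L T s) = (H T (L T s) - L T s) + (L T s - q T (L T s)) := by
        abel
      have e2 : d T ≤ (d T) ^ (1 - e) := by
        rcases eq_or_lt_of_le hdT with h0 | h0
        · rw [← h0, Real.zero_rpow (by linarith)]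
        · calc d T = (d T) ^ (1 : ℝ) := (Real.rpow_one _).symm
            _ ≤ (d T) ^ (1 - e) := Real.rpow_le_rpow_of_exponent_ge h0 hd1T (by linarith)
      calc ‖H T (L T s) - q T (L T s)‖
          ≤ ‖H T (L T s) - L T s‖ + ‖L T s - q T (L T s)‖ := by rw [e1]; exact norm_add_le _ _
        _ ≤ C * d T * ‖L T s‖ + C * (d T) ^ (1 - e) * ‖L T s‖ :=
            add_le_add (hHd T _) (hq2 T _ (hLS T s hs))
        _ ≤ C * (d T) ^ (1 - e) * ‖L T s‖ + C * (d T) ^ (1 - e) * ‖L T s‖ := by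
            gcongr
        _ = 2 * C * (d T) ^ (1 - e) * ‖L T s‖ := by ring
    have h3 : (d T) ^ (1 - e) ≤ C ^ (1 - e) * Real.exp (-(a * T) * (1 - e)) := by
      calc (d T) ^ (1 - e) ≤ (C * Real.exp (-(a * T))) ^ (1 - e) :=
            Real.rpow_le_rpow hdT (hd T) (by linarith)
        _ = C ^ (1 - e) * Real.exp (-(a * T) * (1 - e)) := by
            rw [Real.mul_rpow hC.le (Real.exp_pos _).le, ← Real.exp_mul]
    have hCe : 0 < C ^ (1 - e) := Real.rpow_pos_of_pos hC _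
    calc ‖H 0 s - J T (q T (L T s))‖ = ‖J T (H T (L T s) - q T (L T s))‖ := by rw [h1]
      _ ≤ C * Real.exp (2 * b * T) * ‖H T (L T s) - q T (L T s)‖ := hJ T _
      _ ≤ C * Real.exp (2 * b * T) * (2 * C * (d T) ^ (1 - e) * ‖L T s‖) := by gcongr
      _ ≤ C * Real.exp (2 * b * T) * (2 * C * (C ^ (1 - e) * Real.exp (-(a * T) * (1 - e))) *
            (C * Real.exp (-(2 * a * T)) * ‖s‖)) := by
            gcongr
            exact hL T s
      _ = K * (Real.exp (2 * b * T) * Real.exp (-(a * T) * (1 - e)) *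
            Real.exp (-(2 * a * T))) := by rw [hK]; ring
      _ = K * Real.exp (-(r * T)) := by
            rw [← Real.exp_add, ← Real.exp_add, hr]
            congr 2
            ring
  have hlim : Tendsto (fun T : ℕ => K * Real.exp (-(r * T))) atTop (𝓝 0) := by
    have h1 : Tendsto (fun T : ℕ => r * (T : ℝ)) atTop atTop :=
      tendsto_natCast_atTop_atTop.const_mul_atTop hrpos
    have h2 := (Real.tendsto_exp_neg_atTop_nhds_zero.comp h1).const_mul K
    simpa [Function.comp_def] using h2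
  have hconv : Tendsto (fun T => J T (q T (L T s))) atTop (𝓝 (H 0 s)) := by
    rw [tendsto_iff_norm_sub_tendsto_zero]
    refine squeeze_zero (fun _ => norm_nonneg _) (fun T => ?_) hlim
    rw [norm_sub_rev]
    exact hbound T
  exact (S' 0).closed_of_finiteDimensional.mem_of_tendsto hconv
    (Eventually.of_forall hmem)

end Vale.Agent.P207.H493
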